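import Vale.Agent.P256.H975.Use
import Vale.Agent.P256.H387.Iface

/-! The contact rule for the pencils `IsPen` of the interface. -/

set_option linter.all false

namespace Vale.Agent.P256.H975

open Filter Topology Matrix MvPolynomial Vale.Agent.P256 Vale.Agent.P256.H387

variable {N : ℕ} {p : MvPolynomial (Fin N) ℝ} {e f w z : Fin N → ℝ}
variable {ι : Type} [Fintype ι] [DecidableEq ι] {B G0 G1 : Matrix ι ι ℝ} {H DH : ℝ → Matrix ι ι ℝ}

/-- the size of a real pencil of `p` is twice the degree of `p` -/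
theorem card_of_isPen (hp : IsHyperbolic p e) {d : ℕ} (hd : p.IsHomogeneous d)
    (hP : IsPen p e f w z B G0 G1 H DH) : Fintype.card ι = 2 * d := by
  have h1 := hP.det_eq.self_of_nhds 2 0 0
  have h2 : (Pn B G0 G1 H 2 0 0 0) = (2 : ℝ) • (1 : Matrix ι ι ℝ) := by
    simp [Pn]
  rw [h2, Matrix.det_smul, Matrix.det_one, mul_one, zero_smul, zero_smul, add_zero, add_zero,
    eval_smul' hd] at h1
  have he : eval e p ≠ 0 := hp.2.1.ne'
  have h3 : ((2 : ℝ) ^ d) ^ 2 = 2 ^ Fintype.card ι := by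
    have : eval e p ^ 2 * ((2 : ℝ) ^ d) ^ 2 = eval e p ^ 2 * 2 ^ Fintype.card ι := by
      rw [← h1]; ring
    exact mul_left_cancel₀ (pow_ne_zero 2 he) this
  rw [← pow_mul] at h3
  have := pow_right_injective₀ (by norm_num : (0 : ℝ) < 2) (by norm_num) h3
  rw [← this]; ring

theorem tendsto_H (hP : IsPen p e f w z B G0 G1 H DH) : Tendsto H (𝓝 (0 : ℝ)) (𝓝 (H 0)) :=
  tendsto_pi_nhds.2 fun i => tendsto_pi_nhds.2 fun j => (hP.nk i j).cont

/-- **Contact rule for `IsPen`**, base `f`, plane `z + s w`: for every vector `v` in the kernel of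
`G0 = M(z)` and every direction `Z f + α w`. -/
theorem contact_isPen (hp : IsHyperbolic p e) (hz : z ∈ hypCone p e)
    (hP : IsPen p e f w z B G0 G1 H DH) {v : ι → ℝ} (hv : G0 *ᵥ v = 0) (Z α : ℝ) :
    (∃ q : ι → ℝ, (v ⬝ᵥ (H 0 *ᵥ v)) * α ^ 2 ≤
      2 * (q ⬝ᵥ (Z • (B *ᵥ v) + α • (G1 *ᵥ v))) - q ⬝ᵥ (G0 *ᵥ q)) ∧
    (v ≠ 0 → (∀ τ : ℝ, eval (z + τ • (Z • f + α • w)) p = 0) ∨
      ∃ q : ι → ℝ, (v ⬝ᵥ (H 0 *ᵥ v)) * α ^ 2 <
      2 * (q ⬝ᵥ (Z • (B *ᵥ v) + α • (G1 *ᵥ v))) - q ⬝ᵥ (G0 *ᵥ q)) := by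
  obtain ⟨d, hd⟩ := hp.1
  refine contact_pencil hp hd (card_of_isPen hp hd hP) hz hP.symB hP.sym0 hP.sym1
    (Eventually.of_forall hP.symH) ((tendsto_H hP).mono_left nhdsWithin_le_nhds) ?_ ?_ hv Z α
  · intro t b
    have h1 := hP.det_eq.self_of_nhds t b 1
    have h2 : Pn B G0 G1 H t b 1 0 = t • (1 : Matrix ι ι ℝ) + b • B + G0 := by
      simp [Pn, Gs]
    rw [h2, one_smul, zero_smul, add_zero] at h1
    exact h1
  · filter_upwards [hP.det_eq.filter_mono nhdsWithin_le_nhds] with a ha t b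
    have h1 := ha t b 1
    have h2 : Pn B G0 G1 H t b 1 a = t • (1 : Matrix ι ι ℝ) + b • B +
        (G0 + a • G1 + a ^ 2 • H a) := by
      simp [Pn, Gs]
    rw [h2, one_smul] at h1
    exact h1

end Vale.Agent.P256.H975
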