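import Vale.Agent.P256.H975.Core

/-! **The contact rule.** Let `H t = H0 + t H1 + t² H2 + o(t²)` be Hermitian matrices with the same
characteristic polynomial as a linear pencil `A0 + t A1`, `A0` positive semidefinite, and let `v`
be in the kernel of `H0`.  Then there is `q` with
`⟨v, H2 v⟩ ≤ 2 Re ⟨q, H1 v⟩ - ⟨q, H0 q⟩`, and the inequality can be made strict unless `A0` and
`A1` have a common kernel vector. -/

set_option linter.all false

namespace Vale.Agent.P256.H975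

open Filter Topology Matrix

variable {𝕜 : Type*} [RCLike 𝕜] {n : Type*} [Fintype n] [DecidableEq n]

theorem exists_pinv {A : Matrix n n 𝕜} (hA : A.IsHermitian) :
    ∃ R : Matrix n n 𝕜, R.IsHermitian ∧ A * R * A = A ∧ R * A = A * R ∧ R * A * R = R := by
  set U : Matrix n n 𝕜 := (hA.eigenvectorUnitary : Matrix n n 𝕜) with hU
  set d : n → 𝕜 := fun i => (hA.eigenvalues i : 𝕜) with hd
  set r : n → 𝕜 := fun i => (((hA.eigenvalues i)⁻¹ : ℝ) : 𝕜) with hr
  have hUU : Uᴴ * U = 1 := by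
    have := (Matrix.mem_unitaryGroup_iff').1 hA.eigenvectorUnitary.2
    exact this
  have hAeq : A = U * diagonal d * Uᴴ := by
    have := hA.spectral_theorem
    rw [Unitary.conjStarAlgAut_apply] at this
    exact this
  have hsd : ∀ (a b : n → 𝕜), (U * diagonal a * Uᴴ) * (U * diagonal b * Uᴴ) =
      U * diagonal (fun i => a i * b i) * Uᴴ := by
    intro a b
    calc (U * diagonal a * Uᴴ) * (U * diagonal b * Uᴴ)
        = U * diagonal a * (Uᴴ * U) * diagonal b * Uᴴ := by simp only [mul_assoc]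
      _ = U * (diagonal a * diagonal b) * Uᴴ := by rw [hUU, mul_one]; simp only [mul_assoc]
      _ = _ := by rw [diagonal_mul_diagonal]
  refine ⟨U * diagonal r * Uᴴ, ?_, ?_, ?_, ?_⟩
  · show (U * diagonal r * Uᴴ)ᴴ = _
    rw [conjTranspose_mul, conjTranspose_mul, conjTranspose_conjTranspose, diagonal_conjTranspose,
      mul_assoc]
    have : star r = r := by
      funext i; simp [hr]
    rw [this]
  · conv_lhs => rw [hAeq]
    rw [hsd, hsd]
    conv_rhs => rw [hAeq]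
    congr 3
    funext i
    simp only [hd, hr, RCLike.ofReal_inv]
    by_cases h : (hA.eigenvalues i : 𝕜) = 0
    · rw [h]; simp
    · rw [mul_inv_cancel₀ h, one_mul]
  · rw [hAeq, hsd, hsd]
    congr 3
    funext i
    exact mul_comm _ _
  · rw [hAeq, hsd, hsd]
    congr 3
    funext i
    simp only [hd, hr, RCLike.ofReal_inv]
    by_cases h : (hA.eigenvalues i : 𝕜) = 0
    · rw [h]; simp
    · rw [inv_mul_cancel₀ h, one_mul]

theorem exists_conj {A B : Matrix n n 𝕜} (hA : A.IsHermitian) (hB : B.IsHermitian)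
    (h : A.charpoly = B.charpoly) :
    ∃ W : Matrix n n 𝕜, W ∈ Matrix.unitaryGroup n 𝕜 ∧ W * A = B * W := by
  have he := (Matrix.IsHermitian.eigenvalues_eq_eigenvalues_iff hA hB).2 h
  refine ⟨(hB.eigenvectorUnitary * star hA.eigenvectorUnitary : Matrix.unitaryGroup n 𝕜),
    (hB.eigenvectorUnitary * star hA.eigenvectorUnitary).2, ?_⟩
  have e1 := hA.spectral_theorem
  have e2 := hB.spectral_theorem
  rw [Unitary.conjStarAlgAut_apply] at e1 e2
  rw [← he] at e2
  set U : Matrix n n 𝕜 := (hA.eigenvectorUnitary : Matrix n n 𝕜) with hU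
  set V : Matrix n n 𝕜 := (hB.eigenvectorUnitary : Matrix n n 𝕜) with hV
  set D : Matrix n n 𝕜 := diagonal (RCLike.ofReal ∘ hA.eigenvalues) with hD
  have hUU : star U * U = 1 := (Matrix.mem_unitaryGroup_iff').1 hA.eigenvectorUnitary.2
  have hVV : star V * V = 1 := (Matrix.mem_unitaryGroup_iff').1 hB.eigenvectorUnitary.2
  show V * star U * A = B * (V * star U)
  have e1' : A = U * D * star U := e1
  have e2' : B = V * D * star V := e2
  rw [e1', e2']
  calc V * star U * (U * D * star U) = V * (star U * U) * D * star U := by simp only [mul_assoc]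
    _ = V * D * (star V * V) * star U := by rw [hUU, hVV, mul_one, mul_one]
    _ = _ := by simp only [mul_assoc]

/-- compactness of the unitary group along an ultrafilter -/
theorem unitary_lim (U : Ultrafilter ℝ) {W : ℝ → Matrix n n 𝕜}
    (hW : ∀ᶠ t in (U : Filter ℝ), W t ∈ Matrix.unitaryGroup n 𝕜) :
    ∃ W0 : Matrix n n 𝕜, Tendsto W U (𝓝 W0) ∧ W0 * W0ᴴ = 1 ∧ W0ᴴ * W0 = 1 := by
  have h1 : ∀ i j, ∃ w : 𝕜, Tendsto (fun t => W t i j) U (𝓝 w) := by
    intro i j
    have hc : IsCompact (Metric.closedBall (0 : 𝕜) 1) := isCompact_closedBall _ _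
    have hm : ∀ᶠ t in (U : Filter ℝ), W t i j ∈ Metric.closedBall (0 : 𝕜) 1 := by
      filter_upwards [hW] with t ht
      rw [mem_closedBall_zero_iff]
      exact entry_norm_bound_of_unitary ht i j
    obtain ⟨w, hw, hw'⟩ := hc.ultrafilter_le_nhds (U.map fun t => W t i j)
      (by rw [le_principal_iff]; exact hm)
    exact ⟨w, hw'⟩
  choose w hw using h1
  have hlim : Tendsto W U (𝓝 (fun i j => w i j : Matrix n n 𝕜)) :=
    tendsto_pi_nhds.2 fun i => tendsto_pi_nhds.2 fun j => hw i j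
  have hst : Tendsto (fun t => (W t)ᴴ) U (𝓝 (fun i j => w i j : Matrix n n 𝕜)ᴴ) :=
    (continuous_id.matrix_conjTranspose.tendsto _).comp hlim
  refine ⟨_, hlim, ?_, ?_⟩
  · refine tendsto_nhds_unique (hlim.mul hst) (tendsto_const_nhds.congr' ?_)
    filter_upwards [hW] with t ht
    exact ((Matrix.mem_unitaryGroup_iff).1 ht).symm
  · refine tendsto_nhds_unique (hst.mul hlim) (tendsto_const_nhds.congr' ?_)
    filter_upwards [hW] with t ht
    exact ((Matrix.mem_unitaryGroup_iff').1 ht).symm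

/-- the exact second order identity: after a unitary change of the linear pencil (`B0 = H0`),
for every `N` killed by `H0` and by `P H1` -/
theorem second_order {F : Filter ℝ} [F.NeBot] (hF : F ≤ 𝓝[≠] (0 : ℝ))
    {H : ℝ → Matrix n n 𝕜} {H0 H1 H2 A0 A1 : Matrix n n 𝕜}
    (hA0 : A0.IsHermitian) (hA1 : A1.IsHermitian)
    (hH : ∀ᶠ t in F, (H t).IsHermitian)
    (hc : ∀ᶠ t in F, (H t).charpoly = (A0 + t • A1).charpoly)
    (hT : Tendsto (fun t : ℝ => (t ^ 2)⁻¹ • (H t - H0 - t • H1 - t ^ 2 • H2)) F (𝓝 0)) :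
    ∃ W0 : Matrix n n 𝕜, W0 * W0ᴴ = 1 ∧ W0ᴴ * W0 = 1 ∧ W0ᴴ * A0 * W0 = H0 ∧
      ∀ R : Matrix n n 𝕜, R.IsHermitian → H0 * R * H0 = H0 → R * H0 = H0 * R →
      ∀ N : Matrix n n 𝕜, H0 * N = 0 → (1 - H0 * R) * H1 * N = 0 →
        (1 - H0 * R) * (W0ᴴ * A1 * W0) * N = 0 ∧
        Nᴴ * H2 * N = (H1 * N)ᴴ * R * (H1 * N) -
          (W0ᴴ * A1 * W0 * N)ᴴ * R * (W0ᴴ * A1 * W0 * N) := by
  set U : Ultrafilter ℝ := Ultrafilter.of F with hU
  have hUF : (U : Filter ℝ) ≤ F := Ultrafilter.of_le F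
  have hU1 : ∀ᶠ t : ℝ in (U : Filter ℝ), t ≠ 0 :=
    (hUF.trans hF) (self_mem_nhdsWithin)
  have hU0 : Tendsto (fun t : ℝ => t) U (𝓝 0) :=
    (hUF.trans hF).trans nhdsWithin_le_nhds
  have hexW : ∀ t : ℝ, ∃ W : Matrix n n 𝕜, ((H t).IsHermitian →
      (H t).charpoly = (A0 + t • A1).charpoly →
      (W ∈ Matrix.unitaryGroup n 𝕜 ∧ W * H t = (A0 + t • A1) * W)) := by
    intro t
    by_cases h1 : (H t).IsHermitian
    · by_cases h2 : (H t).charpoly = (A0 + t • A1).charpoly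
      · have h3 : (A0 + t • A1).IsHermitian := by
          refine hA0.add ?_
          show (t • A1)ᴴ = t • A1
          rw [conjTranspose_smul, star_trivial, hA1]
        obtain ⟨W, hW⟩ := exists_conj h1 h3 h2
        exact ⟨W, fun _ _ => hW⟩
      · exact ⟨0, fun _ h => absurd h h2⟩
    · exact ⟨0, fun h => absurd h h1⟩
  choose W hW using hexW
  have hWU : ∀ᶠ t in (U : Filter ℝ), W t ∈ Matrix.unitaryGroup n 𝕜 ∧
      W t * H t = (A0 + t • A1) * W t := by
    filter_upwards [hUF hH, hUF hc] with t h1 h2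
    exact hW t h1 h2
  obtain ⟨W0, hlim, hWW, hWW'⟩ := unitary_lim U (hWU.mono fun t ht => ht.1)
  set E : ℝ → Matrix n n 𝕜 := fun t => (t ^ 2)⁻¹ • (H t - H0 - t • H1 - t ^ 2 • H2) with hE
  have hElim : Tendsto E U (𝓝 0) := hT.mono_left hUF
  have hHeq : ∀ᶠ t in (U : Filter ℝ), H t = H0 + t • H1 + t ^ 2 • (H2 + E t) := by
    filter_upwards [hU1] with t ht
    rw [hE]
    have : t ^ 2 • ((t ^ 2)⁻¹ • (H t - H0 - t • H1 - t ^ 2 • H2)) =
        H t - H0 - t • H1 - t ^ 2 • H2 := by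
      rw [smul_smul, mul_inv_cancel₀ (pow_ne_zero 2 ht), one_smul]
    rw [smul_add, this]
    abel
  have hHlim : Tendsto H U (𝓝 H0) := by
    have h1 : Tendsto (fun t => H0 + t • H1 + t ^ 2 • (H2 + E t)) U
        (𝓝 (H0 + (0 : ℝ) • H1 + (0 : ℝ) ^ 2 • (H2 + 0))) :=
      ((hU0.smul_const H1).const_add H0).add ((hU0.pow 2).smul (hElim.const_add H2))
    have h2 := h1.congr' (hHeq.mono fun t ht => ht.symm)
    simpa using h2
  have hH0 : W0 * H0 = A0 * W0 := by
    have h1 : Tendsto (fun t => W t * H t) U (𝓝 (W0 * H0)) := hlim.mul hHlim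
    have h2 : Tendsto (fun t => (A0 + t • A1) * W t) U (𝓝 ((A0 + (0 : ℝ) • A1) * W0)) :=
      ((hU0.smul_const A1).const_add A0).mul hlim
    have h3 := tendsto_nhds_unique h1 (h2.congr' (hWU.mono fun t ht => ht.2.symm))
    rwa [zero_smul, add_zero] at h3
  have hH0' : W0ᴴ * A0 * W0 = H0 := by
    rw [mul_assoc, ← hH0, ← mul_assoc, hWW', one_mul]
  refine ⟨W0, hWW, hWW', hH0', ?_⟩
  intro R hR h1 h2 N hN hN1
  have hH0h : H0.IsHermitian := by
    rw [← hH0']
    show (W0ᴴ * A0 * W0)ᴴ = _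
    rw [conjTranspose_mul, conjTranspose_mul, conjTranspose_conjTranspose, hA0, mul_assoc]
  have hA1h : (W0ᴴ * A1 * W0).IsHermitian := by
    show (W0ᴴ * A1 * W0)ᴴ = _
    rw [conjTranspose_mul, conjTranspose_mul, conjTranspose_conjTranspose, hA1, mul_assoc]
  have hW'lim : Tendsto (fun t => W0ᴴ * W t) U (𝓝 1) := by
    have := hlim.const_mul W0ᴴ
    rwa [hWW'] at this
  refine core hU0 hU1 (W := fun t => W0ᴴ * W t) (E := E) (A0 := H0) (A1 := W0ᴴ * A1 * W0)
    (H1 := H1) (H2 := H2) (R := R) (N := N) hW'lim hElim ?_ ?_ hH0h hA1h hR h1 h2 hN hN1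
  · filter_upwards [hWU, hHeq] with t ht hht
    show W0ᴴ * W t * (H0 + t • H1 + t ^ 2 • (H2 + E t)) = (H0 + t • (W0ᴴ * A1 * W0)) * (W0ᴴ * W t)
    rw [← hht, mul_assoc, ht.2, ← hH0']
    have e1 : W0ᴴ * A0 * W0 + t • (W0ᴴ * A1 * W0) = W0ᴴ * (A0 + t • A1) * W0 := by
      rw [mul_add, add_mul, mul_smul_comm, smul_mul_assoc]
    rw [e1]
    calc W0ᴴ * ((A0 + t • A1) * W t) = W0ᴴ * (A0 + t • A1) * (W0 * W0ᴴ) * W t := by
          rw [hWW, mul_one, mul_assoc]
      _ = _ := by simp only [mul_assoc]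
  · filter_upwards [hWU] with t ht
    show (W0ᴴ * W t)ᴴ * (W0ᴴ * W t) = 1
    rw [conjTranspose_mul, conjTranspose_conjTranspose]
    calc (W t)ᴴ * W0 * (W0ᴴ * W t) = (W t)ᴴ * (W0 * W0ᴴ) * W t := by simp only [mul_assoc]
      _ = 1 := by
        rw [hWW, mul_one]
        exact (Matrix.mem_unitaryGroup_iff').1 ht.1

end Vale.Agent.P256.H975
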