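import Mathlib

/-! The contact rule for Hermitian families isospectral to a linear pencil: limit computation. -/

set_option linter.all false

namespace Vale.Agent.P256.H975

open Filter Topology Matrix

variable {𝕜 : Type*} [RCLike 𝕜] {n : Type*} [Fintype n] [DecidableEq n]

theorem core {U : Filter ℝ} [U.NeBot] (hU0 : Tendsto (fun t : ℝ => t) U (𝓝 0))
    (hU1 : ∀ᶠ t : ℝ in U, t ≠ 0)
    {W E : ℝ → Matrix n n 𝕜} {A0 A1 H1 H2 R N : Matrix n n 𝕜}
    (hW : Tendsto W U (𝓝 1)) (hE : Tendsto E U (𝓝 0))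
    (eq1 : ∀ᶠ t in U, W t * (A0 + t • H1 + t ^ 2 • (H2 + E t)) = (A0 + t • A1) * W t)
    (hWu : ∀ᶠ t in U, (W t)ᴴ * W t = 1)
    (hA0 : A0.IsHermitian) (hA1 : A1.IsHermitian)
    (hR : R.IsHermitian) (h1 : A0 * R * A0 = A0) (h2 : R * A0 = A0 * R) (hN : A0 * N = 0)
    (hN1 : (1 - A0 * R) * H1 * N = 0) :
    (1 - A0 * R) * A1 * N = 0 ∧
      Nᴴ * H2 * N = (H1 * N)ᴴ * R * (H1 * N) - (A1 * N)ᴴ * R * (A1 * N) := by
  set P : Matrix n n 𝕜 := 1 - A0 * R with hP
  have hPA0 : P * A0 = 0 := by rw [hP, sub_mul, one_mul, h1, sub_self]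
  have hPN : P * N = N := by
    rw [hP, ← h2, sub_mul, one_mul, mul_assoc, hN, mul_zero, sub_zero]
  have hPH : Pᴴ = P := by
    rw [hP, conjTranspose_sub, conjTranspose_one, conjTranspose_mul, hR, hA0, h2]
  have hPP : P * P = P := by
    have e : P * (A0 * R) = 0 := by rw [← mul_assoc, hPA0, zero_mul]
    calc P * P = P * (1 - A0 * R) := by rw [← hP]
      _ = P - P * (A0 * R) := by rw [mul_sub, mul_one]
      _ = P := by rw [e, sub_zero]
  have hNP : Nᴴ * P = Nᴴ := by
    have := congrArg conjTranspose hPN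
    rwa [conjTranspose_mul, hPH] at this
  have hNA0 : Nᴴ * A0 = 0 := by
    have := congrArg conjTranspose hN
    rwa [conjTranspose_mul, hA0, conjTranspose_zero] at this
  -- the commutator
  set D : ℝ → Matrix n n 𝕜 := fun t => A1 * W t - W t * H1 - t • (W t * (H2 + E t)) with hD
  have hDeq : ∀ᶠ t in U, t • D t = W t * A0 - A0 * W t := by
    filter_upwards [eq1] with t ht
    have e : W t * (A0 + t • H1 + t ^ 2 • (H2 + E t)) =
        W t * A0 + t • (W t * H1) + t ^ 2 • (W t * (H2 + E t)) := by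
      rw [mul_add, mul_add, mul_smul_comm, mul_smul_comm]
    have e' : (A0 + t • A1) * W t = A0 * W t + t • (A1 * W t) := by
      rw [add_mul, smul_mul_assoc]
    rw [e, e'] at ht
    have : t • D t = t • (A1 * W t) - t • (W t * H1) - t ^ 2 • (W t * (H2 + E t)) := by
      rw [hD]; simp only [smul_sub, smul_smul, sq]
    rw [this, sub_sub, sub_eq_sub_iff_add_eq_add, add_comm, ← ht]
    abel
  have hDlim : Tendsto D U (𝓝 (A1 - H1)) := by
    have e1 : Tendsto (fun t => A1 * W t) U (𝓝 (A1 * 1)) := hW.const_mul A1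
    have e2 : Tendsto (fun t => W t * H1) U (𝓝 (1 * H1)) := hW.mul_const H1
    have e3 : Tendsto (fun t => t • (W t * (H2 + E t))) U (𝓝 ((0 : ℝ) • (1 * (H2 + 0)))) :=
      hU0.smul (hW.mul (hE.const_add H2))
    have := (e1.sub e2).sub e3
    simpa using this
  have hPDN : ∀ᶠ t in U, P * D t * N = 0 := by
    filter_upwards [hDeq, hU1] with t ht h0
    have e : t • (P * D t * N) = 0 := by
      rw [← smul_mul_assoc, ← mul_smul_comm, ht, mul_sub, sub_mul, mul_assoc, mul_assoc, hN,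
        ← mul_assoc P A0, hPA0]
      simp
    rcases smul_eq_zero.1 e with h | h
    · exact absurd h h0
    · exact h
  have hPA1N : P * A1 * N = 0 := by
    have e1 : Tendsto (fun t => P * D t * N) U (𝓝 (P * (A1 - H1) * N)) :=
      (hDlim.const_mul P).mul_const N
    have e2 : Tendsto (fun t => P * D t * N) U (𝓝 0) :=
      tendsto_const_nhds.congr' (hPDN.mono fun t ht => ht.symm)
    have e3 := tendsto_nhds_unique e1 e2
    rw [mul_sub, sub_mul, hN1, sub_zero] at e3
    exact e3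
  refine ⟨hPA1N, ?_⟩
  have hNA1P : Nᴴ * A1 * P = 0 := by
    have := congrArg conjTranspose hPA1N
    rw [conjTranspose_mul, conjTranspose_mul, hPH, hA1, conjTranspose_zero, ← mul_assoc] at this
    exact this
  have hNH1N : Nᴴ * H1 * N = 0 := by
    rw [← hNP, mul_assoc, mul_assoc, ← mul_assoc P, hN1, mul_zero]
  -- the vectors
  set Y : ℝ → Matrix n n 𝕜 := fun t => -(D t * N) with hY
  set G : Matrix n n 𝕜 := (H1 - A1) * N with hG
  have hYlim : Tendsto Y U (𝓝 G) := by
    have := (hDlim.mul_const N).neg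
    have e : -((A1 - H1) * N) = G := by rw [hG, ← neg_mul, neg_sub]
    rwa [e] at this
  have hYeq : ∀ᶠ t in U, t • Y t = A0 * W t * N := by
    filter_upwards [hDeq] with t ht
    rw [hY]
    show t • -(D t * N) = _
    rw [smul_neg, ← smul_mul_assoc, ht, sub_mul, mul_assoc (W t), hN, mul_zero, zero_sub, neg_neg]
  set Z : ℝ → Matrix n n 𝕜 := fun t =>
    P * D t * R * H1 * N + P * W t * (H2 + E t) * N - P * A1 * R * Y t with hZ
  have hZlim : ∃ Z0, Tendsto Z U (𝓝 Z0) := by
    refine ⟨_, Tendsto.sub (Tendsto.add ((((hDlim.const_mul P).mul_const R).mul_const H1).mul_const N)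
      (((hW.const_mul P).mul (hE.const_add H2)).mul_const N)) (hYlim.const_mul (P * A1 * R))⟩
  have hAR : H1 * N = A0 * R * H1 * N := by
    have := hN1
    rw [hP, sub_mul, sub_mul, one_mul, sub_eq_zero] at this
    exact this
  have hWN : ∀ᶠ t in U, W t * N = P * W t * N + t • (R * Y t) := by
    filter_upwards [hYeq] with t ht
    rw [← mul_smul_comm, ht, hP, ← h2]
    noncomm_ring
  have hPAP : ∀ᶠ t in U, P * A1 * (P * W t * N) = t • Z t := by
    filter_upwards [hDeq, hYeq, hWN, eq1, hU1] with t hd hy hw heq h0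
    have e1 : P * A1 * (W t * N) = P * W t * H1 * N + t • (P * W t * (H2 + E t) * N) := by
      have e := congrArg (fun X => P * X * N) heq
      have e2 : P * (W t * (A0 + t • H1 + t ^ 2 • (H2 + E t))) * N =
          t • (P * W t * H1 * N + t • (P * W t * (H2 + E t) * N)) := by
        have : P * (W t * (A0 + t • H1 + t ^ 2 • (H2 + E t))) * N =
          P * W t * (A0 * N) + t • (P * W t * H1 * N) + t ^ 2 • (P * W t * (H2 + E t) * N) := by
          simp only [mul_add, add_mul, mul_smul_comm, smul_mul_assoc, mul_assoc, smul_add]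
        rw [this, hN, mul_zero, zero_add, smul_add, smul_smul, sq]
      have e3 : P * ((A0 + t • A1) * W t) * N = t • (P * A1 * (W t * N)) := by
        have : P * ((A0 + t • A1) * W t) * N = P * A0 * W t * N + t • (P * A1 * (W t * N)) := by
          simp only [mul_add, add_mul, mul_smul_comm, smul_mul_assoc, mul_assoc, smul_add]
        rw [this, hPA0, zero_mul, zero_mul, zero_add]
      have e4 : P * (W t * (A0 + t • H1 + t ^ 2 • (H2 + E t))) * N =
        P * ((A0 + t • A1) * W t) * N := e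
      rw [e2, e3] at e4
      exact (smul_right_injective _ h0 e4).symm
    have e2 : P * W t * H1 * N = t • (P * D t * R * H1 * N) := by
      have e3 : P * W t * A0 = t • (P * D t) := by
        rw [← mul_smul_comm, hd, mul_sub, ← mul_assoc P A0, hPA0, zero_mul, sub_zero, mul_assoc]
      calc P * W t * H1 * N = P * W t * (H1 * N) := by rw [mul_assoc]
        _ = P * W t * (A0 * R * H1 * N) := by rw [← hAR]
        _ = (P * W t * A0) * R * H1 * N := by simp only [mul_assoc]
        _ = t • (P * D t * R * H1 * N) := by rw [e3]; simp only [smul_mul_assoc]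
    have e3 : P * A1 * (P * W t * N) = P * A1 * (W t * N) - t • (P * A1 * R * Y t) := by
      rw [hw, mul_add, mul_smul_comm, ← mul_assoc (P * A1) R, add_sub_cancel_right]
    rw [e3, e1, e2, hZ]
    simp only [smul_sub, smul_add]
  have hquad : ∀ᶠ t in U, Nᴴ * (H2 + E t) * N = (Y t)ᴴ * R * Y t + (P * W t * N - N)ᴴ * Z t +
      (R * Y t)ᴴ * A1 * (P * W t * N) + (P * W t * N)ᴴ * A1 * (R * Y t) +
      t • ((R * Y t)ᴴ * A1 * (R * Y t)) := by
    filter_upwards [hDeq, hYeq, hWN, eq1, hU1, hPAP, hWu] with t hd hy hw heq h0 hpap hwu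
    have e1 : Nᴴ * (A0 + t • H1 + t ^ 2 • (H2 + E t)) * N = t ^ 2 • (Nᴴ * (H2 + E t) * N) := by
      have : Nᴴ * (A0 + t • H1 + t ^ 2 • (H2 + E t)) * N =
          Nᴴ * A0 * N + t • (Nᴴ * H1 * N) + t ^ 2 • (Nᴴ * (H2 + E t) * N) := by
        simp only [mul_add, add_mul, mul_smul_comm, smul_mul_assoc]
      rw [this, hNA0, hNH1N]; simp
    have e2 : Nᴴ * (A0 + t • H1 + t ^ 2 • (H2 + E t)) * N =
        (W t * N)ᴴ * (A0 + t • A1) * (W t * N) := by
      calc Nᴴ * (A0 + t • H1 + t ^ 2 • (H2 + E t)) * N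
          = Nᴴ * (((W t)ᴴ * W t) * (A0 + t • H1 + t ^ 2 • (H2 + E t))) * N := by rw [hwu, one_mul]
        _ = Nᴴ * (W t)ᴴ * (W t * (A0 + t • H1 + t ^ 2 • (H2 + E t))) * N := by
            simp only [mul_assoc]
        _ = Nᴴ * (W t)ᴴ * ((A0 + t • A1) * W t) * N := by rw [heq]
        _ = _ := by rw [conjTranspose_mul]; simp only [mul_assoc]
    have e3 : (W t * N)ᴴ * (A0 + t • A1) * (W t * N) =
        (W t * N)ᴴ * A0 * (W t * N) + t • ((W t * N)ᴴ * A1 * (W t * N)) := by
      simp only [mul_add, add_mul, mul_smul_comm, smul_mul_assoc]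
    have e4 : (W t * N)ᴴ * A0 * (W t * N) = t ^ 2 • ((Y t)ᴴ * R * Y t) := by
      have : (W t * N)ᴴ * A0 * (W t * N) = (A0 * W t * N)ᴴ * R * (A0 * W t * N) := by
        calc (W t * N)ᴴ * A0 * (W t * N) = (W t * N)ᴴ * (A0 * R * A0) * (W t * N) := by rw [h1]
          _ = ((W t * N)ᴴ * A0ᴴ) * R * (A0 * W t * N) := by rw [hA0]; simp only [mul_assoc]
          _ = _ := by rw [← conjTranspose_mul]; simp only [mul_assoc]
      rw [this, ← hy, conjTranspose_smul]
      simp only [smul_mul_assoc, mul_smul_comm, smul_smul, sq, star_trivial]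
    have e5 : (P * W t * N)ᴴ * A1 * (P * W t * N) = t • ((P * W t * N - N)ᴴ * Z t) := by
      have f1 : (P * W t * N)ᴴ * A1 * (P * W t * N) =
          (P * W t * N)ᴴ * (P * A1 * (P * W t * N)) := by
        have : (P * W t * N)ᴴ = (P * W t * N)ᴴ * P := by
          conv_lhs => rw [← hPP, mul_assoc P P, mul_assoc P, conjTranspose_mul, hPH]
        conv_lhs => rw [this]
        simp only [mul_assoc]
      have f2 : Nᴴ * (P * A1 * (P * W t * N)) = 0 := by
        have : Nᴴ * (P * A1 * (P * W t * N)) = (Nᴴ * P) * A1 * P * (W t * N) := by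
          simp only [mul_assoc]
        rw [this, hNP, hNA1P, zero_mul]
      rw [f1, ← mul_smul_comm, ← hpap, conjTranspose_sub, sub_mul ((P * W t * N)ᴴ) Nᴴ, f2, sub_zero]
    have e6 : (W t * N)ᴴ * A1 * (W t * N) = t • ((P * W t * N - N)ᴴ * Z t +
      (R * Y t)ᴴ * A1 * (P * W t * N) + (P * W t * N)ᴴ * A1 * (R * Y t) +
      t • ((R * Y t)ᴴ * A1 * (R * Y t))) := by
      rw [hw, conjTranspose_add, conjTranspose_smul, star_trivial]
      have : ((P * W t * N)ᴴ + t • (R * Y t)ᴴ) * A1 * (P * W t * N + t • (R * Y t)) =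
          (P * W t * N)ᴴ * A1 * (P * W t * N) + t • ((R * Y t)ᴴ * A1 * (P * W t * N)) +
          t • ((P * W t * N)ᴴ * A1 * (R * Y t)) + t • t • ((R * Y t)ᴴ * A1 * (R * Y t)) := by
        simp only [mul_add, add_mul, mul_smul_comm, smul_mul_assoc, smul_add]
        abel
      rw [this, e5]
      simp only [smul_add]
    have e7 : t ^ 2 • (Nᴴ * (H2 + E t) * N) = t ^ 2 • ((Y t)ᴴ * R * Y t +
      (P * W t * N - N)ᴴ * Z t +
      (R * Y t)ᴴ * A1 * (P * W t * N) + (P * W t * N)ᴴ * A1 * (R * Y t) +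
      t • ((R * Y t)ᴴ * A1 * (R * Y t))) := by
      rw [← e1, e2, e3, e4, e6, smul_smul, ← sq, ← smul_add]
      congr 1
      abel
    exact smul_right_injective _ (pow_ne_zero 2 h0) e7
  obtain ⟨Z0, hZ0⟩ := hZlim
  have hst : ∀ {X : ℝ → Matrix n n 𝕜} {X0 : Matrix n n 𝕜}, Tendsto X U (𝓝 X0) →
      Tendsto (fun t => (X t)ᴴ) U (𝓝 X0ᴴ) := by
    intro X X0 h
    exact (continuous_id.matrix_conjTranspose.tendsto X0).comp h
  have hPWN : Tendsto (fun t => P * W t * N) U (𝓝 N) := by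
    have := (hW.const_mul P).mul_const N
    rwa [mul_one, hPN] at this
  have l1 : Tendsto (fun t => Nᴴ * (H2 + E t) * N) U (𝓝 (Nᴴ * H2 * N)) := by
    have := ((hE.const_add H2).const_mul Nᴴ).mul_const N
    rwa [add_zero] at this
  have hRY : Tendsto (fun t => R * Y t) U (𝓝 (R * G)) := hYlim.const_mul R
  have l2 : Tendsto (fun t => (Y t)ᴴ * R * Y t + (P * W t * N - N)ᴴ * Z t +
      (R * Y t)ᴴ * A1 * (P * W t * N) + (P * W t * N)ᴴ * A1 * (R * Y t) +
      t • ((R * Y t)ᴴ * A1 * (R * Y t))) U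
      (𝓝 (Gᴴ * R * G + (N - N)ᴴ * Z0 + (R * G)ᴴ * A1 * N + Nᴴ * A1 * (R * G) +
        (0 : ℝ) • ((R * G)ᴴ * A1 * (R * G)))) :=
    (((((hst hYlim).mul_const R).mul hYlim).add ((hst (hPWN.sub_const N)).mul hZ0)).add
      (((hst hRY).mul_const A1).mul hPWN)).add (((hst hPWN).mul_const A1).mul hRY) |>.add
      (hU0.smul (((hst hRY).mul_const A1).mul hRY))
  have e := tendsto_nhds_unique l1 (l2.congr' (hquad.mono fun t ht => ht.symm))
  rw [e, sub_self, conjTranspose_zero, zero_mul, add_zero, zero_smul, add_zero]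
  rw [conjTranspose_mul R G, hR, hG]
  rw [conjTranspose_mul, conjTranspose_sub, conjTranspose_mul, conjTranspose_mul, hA1]
  noncomm_ring

end Vale.Agent.P256.H975
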