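import Vale.Agent.P256.H975.Contact

/-! The contact rule in vector form (test vectors `q`, no pseudo-inverse in the statements). -/

set_option linter.all false

namespace Vale.Agent.P256.H975

open Filter Topology Matrix
open scoped ComplexOrder

variable {𝕜 : Type*} [RCLike 𝕜] {n : Type*} [Fintype n] [DecidableEq n]

/-- the matrix all of whose columns are `v` -/
def colc (v : n → 𝕜) : Matrix n n 𝕜 := Matrix.of fun a _ => v a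

theorem mul_colc (M : Matrix n n 𝕜) (v : n → 𝕜) : M * colc v = colc (M *ᵥ v) := by
  ext a b
  simp [colc, Matrix.mul_apply, Matrix.mulVec, dotProduct]

theorem colc_star_mul (u w : n → 𝕜) (a b : n) : ((colc u)ᴴ * colc w) a b = star u ⬝ᵥ w := by
  simp [colc, Matrix.mul_apply, dotProduct]

theorem colc_zero : colc (0 : n → 𝕜) = 0 := by
  ext a b; simp [colc]

theorem colc_inj {u v : n → 𝕜} (h : colc u = colc v) : u = v := by
  funext a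
  have := congrFun (congrFun h a) a
  simpa [colc] using this

theorem star_dot_herm {M : Matrix n n 𝕜} (hM : M.IsHermitian) (u v : n → 𝕜) :
    star (M *ᵥ u) ⬝ᵥ v = star u ⬝ᵥ (M *ᵥ v) := by
  rw [Matrix.star_mulVec, hM, Matrix.dotProduct_mulVec]

/-- for Hermitian `M` with pseudo-inverse `R`: a vector orthogonal to `ker M` is killed by
`1 - M R` -/
theorem proj_eq_zero {M R : Matrix n n 𝕜} (hM : M.IsHermitian) (hR : R.IsHermitian)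
    (h1 : M * R * M = M) (h2 : R * M = M * R) {h : n → 𝕜}
    (hh : ∀ u, M *ᵥ u = 0 → star u ⬝ᵥ h = 0) : (1 - M * R) *ᵥ h = 0 := by
  have hP : (1 - M * R).IsHermitian := by
    show (1 - M * R)ᴴ = _
    rw [conjTranspose_sub, conjTranspose_one, conjTranspose_mul, hR, hM, h2]
  have hMP : M * (1 - M * R) = 0 := by
    rw [← h2, mul_sub, mul_one, ← mul_assoc, h1, sub_self]
  have hPP : (1 - M * R) * (1 - M * R) = 1 - M * R := by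
    have : (1 - M * R) * (1 - M * R) = (1 - M * R) - (M * R) * (1 - M * R) := by
      rw [sub_mul (1 : Matrix n n 𝕜) (M * R), one_mul]
    rw [this, ← h2, mul_assoc]
    have e : M * (1 - R * M) = 0 := by rw [h2]; exact hMP
    rw [e, mul_zero, sub_zero]
  have h3 := hh ((1 - M * R) *ᵥ h) (by rw [Matrix.mulVec_mulVec, hMP, Matrix.zero_mulVec])
  have h4 : star ((1 - M * R) *ᵥ h) ⬝ᵥ ((1 - M * R) *ᵥ h) = 0 := by
    have : star ((1 - M * R) *ᵥ h) ⬝ᵥ ((1 - M * R) *ᵥ h) =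
        star ((1 - M * R) *ᵥ ((1 - M * R) *ᵥ h)) ⬝ᵥ h := (star_dot_herm hP _ _).symm
    rw [this, Matrix.mulVec_mulVec, hPP]
    exact h3
  exact dotProduct_star_self_eq_zero.1 h4

/-- **Second order identity in vector form.** -/
theorem second_order_vec {F : Filter ℝ} [F.NeBot] (hF : F ≤ 𝓝[≠] (0 : ℝ))
    {H : ℝ → Matrix n n 𝕜} {H0 H1 H2 A0 A1 : Matrix n n 𝕜}
    (hA0 : A0.IsHermitian) (hA1 : A1.IsHermitian)
    (hH : ∀ᶠ t in F, (H t).IsHermitian)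
    (hc : ∀ᶠ t in F, (H t).charpoly = (A0 + t • A1).charpoly)
    (hT : Tendsto (fun t : ℝ => (t ^ 2)⁻¹ • (H t - H0 - t • H1 - t ^ 2 • H2)) F (𝓝 0)) :
    ∃ W0 : Matrix n n 𝕜, W0 * W0ᴴ = 1 ∧ W0ᴴ * W0 = 1 ∧ W0ᴴ * A0 * W0 = H0 ∧
      ∀ v : n → 𝕜, H0 *ᵥ v = 0 → (∀ u, H0 *ᵥ u = 0 → star u ⬝ᵥ (H1 *ᵥ v) = 0) →
        ∃ q r : n → 𝕜, H0 *ᵥ q = H1 *ᵥ v ∧ H0 *ᵥ r = (W0ᴴ * A1 * W0) *ᵥ v ∧
          star v ⬝ᵥ (H2 *ᵥ v) = star q ⬝ᵥ (H0 *ᵥ q) - star r ⬝ᵥ (H0 *ᵥ r) := by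
  obtain ⟨W0, hW1, hW2, hW3, hmain⟩ := second_order hF hA0 hA1 hH hc hT
  refine ⟨W0, hW1, hW2, hW3, fun v hv hv1 => ?_⟩
  have hH0 : H0.IsHermitian := by
    rw [← hW3]
    show (W0ᴴ * A0 * W0)ᴴ = _
    rw [conjTranspose_mul, conjTranspose_mul, conjTranspose_conjTranspose, hA0, mul_assoc]
  obtain ⟨R, hR, h1, h2, h3⟩ := exists_pinv hH0
  have hP1 := proj_eq_zero hH0 hR h1 h2 hv1
  obtain ⟨e1, e2⟩ := hmain R hR h1 h2 (colc v) (by rw [mul_colc, hv, colc_zero])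
    (by rw [mul_assoc, mul_colc, mul_colc, hP1, colc_zero])
  rw [mul_assoc, mul_colc, mul_colc] at e1
  have e1' : (1 - H0 * R) *ᵥ ((W0ᴴ * A1 * W0) *ᵥ v) = 0 := by
    have := e1
    rw [← colc_zero] at this
    exact colc_inj this
  have f1 : H0 *ᵥ (R *ᵥ (H1 *ᵥ v)) = H1 *ᵥ v := by
    rw [Matrix.sub_mulVec, Matrix.one_mulVec, sub_eq_zero] at hP1
    rw [Matrix.mulVec_mulVec]; exact hP1.symm
  have f2 : H0 *ᵥ (R *ᵥ ((W0ᴴ * A1 * W0) *ᵥ v)) = (W0ᴴ * A1 * W0) *ᵥ v := by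
    rw [Matrix.sub_mulVec, Matrix.one_mulVec, sub_eq_zero] at e1'
    rw [Matrix.mulVec_mulVec]; exact e1'.symm
  refine ⟨R *ᵥ (H1 *ᵥ v), R *ᵥ ((W0ᴴ * A1 * W0) *ᵥ v), f1, f2, ?_⟩
  rcases isEmpty_or_nonempty n with hn | ⟨⟨a⟩⟩
  · simp [dotProduct]
  have e3 := congrFun (congrFun e2 a) a
  have g0 : ((colc v)ᴴ * H2 * colc v) a a = star v ⬝ᵥ (H2 *ᵥ v) := by
    rw [mul_assoc, mul_colc, colc_star_mul]
  have g1 : ∀ M : Matrix n n 𝕜, ((M * colc v)ᴴ * R * (M * colc v)) a a =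
      star (R *ᵥ (M *ᵥ v)) ⬝ᵥ (M *ᵥ v) := by
    intro M
    rw [mul_colc, mul_assoc, mul_colc, colc_star_mul, star_dot_herm hR]
  rw [Matrix.sub_apply, g0, g1, g1] at e3
  rw [e3, f1, f2]

theorem herm_of_conj {W A : Matrix n n 𝕜} (hA : A.IsHermitian) : (Wᴴ * A * W).IsHermitian := by
  show (Wᴴ * A * W)ᴴ = _
  rw [conjTranspose_mul, conjTranspose_mul, conjTranspose_conjTranspose, hA, mul_assoc]

theorem psd_of_re {A : Matrix n n 𝕜} (hA : A.IsHermitian)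
    (hp : ∀ x, 0 ≤ RCLike.re (star x ⬝ᵥ (A *ᵥ x))) : A.PosSemidef :=
  Matrix.PosSemidef.of_dotProduct_mulVec_nonneg hA fun x =>
    RCLike.nonneg_iff.2 ⟨hp x, hA.im_star_dotProduct_mulVec_self x⟩

/-- **Contact rule, weak half**: always `⟨v,H2 v⟩ ≤ 2 Re⟨q,H1 v⟩ - ⟨q,H0 q⟩` for some `q`, if
`v ∈ ker H0`. -/
theorem contact_le {F : Filter ℝ} [F.NeBot] (hF : F ≤ 𝓝[≠] (0 : ℝ))
    {H : ℝ → Matrix n n 𝕜} {H0 H1 H2 A0 A1 : Matrix n n 𝕜}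
    (hA0h : A0.IsHermitian) (hA0p : ∀ x, 0 ≤ RCLike.re (star x ⬝ᵥ (A0 *ᵥ x)))
    (hA1 : A1.IsHermitian)
    (hH : ∀ᶠ t in F, (H t).IsHermitian)
    (hc : ∀ᶠ t in F, (H t).charpoly = (A0 + t • A1).charpoly)
    (hT : Tendsto (fun t : ℝ => (t ^ 2)⁻¹ • (H t - H0 - t • H1 - t ^ 2 • H2)) F (𝓝 0))
    {v : n → 𝕜} (hv : H0 *ᵥ v = 0) :
    ∃ q : n → 𝕜, RCLike.re (star v ⬝ᵥ (H2 *ᵥ v)) ≤
      2 * RCLike.re (star q ⬝ᵥ (H1 *ᵥ v)) - RCLike.re (star q ⬝ᵥ (H0 *ᵥ q)) := by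
  have hA0 := psd_of_re hA0h hA0p
  by_cases hv1 : ∀ u, H0 *ᵥ u = 0 → star u ⬝ᵥ (H1 *ᵥ v) = 0
  · obtain ⟨W0, hW1, hW2, hW3, hmain⟩ := second_order_vec hF hA0.1 hA1 hH hc hT
    obtain ⟨q, r, hq, hr, e⟩ := hmain v hv hv1
    have hH0 : H0.PosSemidef := by rw [← hW3]; exact hA0.conjTranspose_mul_mul_same W0
    have h1 := (RCLike.nonneg_iff.1 (hH0.dotProduct_mulVec_nonneg r)).1
    refine ⟨q, ?_⟩
    rw [e, map_sub, ← hq]
    linarith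
  · push Not at hv1
    obtain ⟨u, hu, hu1⟩ := hv1
    set z : 𝕜 := star u ⬝ᵥ (H1 *ᵥ v) with hz
    have hz2 : 0 < ‖z‖ ^ 2 := by
      have := norm_pos_iff.2 hu1
      positivity
    -- q = c z u, `⟨q, H1 v⟩ = c |z|²`
    set c : ℝ := RCLike.re (star v ⬝ᵥ (H2 *ᵥ v)) / (2 * ‖z‖ ^ 2) with hcdef
    refine ⟨((c : 𝕜) * z) • u, ?_⟩
    have e1 : star (((c : 𝕜) * z) • u) ⬝ᵥ (H1 *ᵥ v) = ((c * ‖z‖ ^ 2 : ℝ) : 𝕜) := by
      rw [star_smul, smul_dotProduct, ← hz, smul_eq_mul, star_mul']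
      have h1 : star (c : 𝕜) = (c : 𝕜) := RCLike.conj_ofReal c
      have h2 : star z * z = ((‖z‖ ^ 2 : ℝ) : 𝕜) := by
        have := RCLike.conj_mul z
        rw [show star z = (starRingEnd 𝕜) z from rfl, this]
        push_cast; rfl
      rw [h1, mul_assoc, h2]
      push_cast; rfl
    have e2 : star (((c : 𝕜) * z) • u) ⬝ᵥ (H0 *ᵥ (((c : 𝕜) * z) • u)) = 0 := by
      rw [Matrix.mulVec_smul, hu, smul_zero, dotProduct_zero]
    rw [e1, e2, RCLike.ofReal_re, map_zero, sub_zero, hcdef]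
    have : 2 * (RCLike.re (star v ⬝ᵥ (H2 *ᵥ v)) / (2 * ‖z‖ ^ 2) * ‖z‖ ^ 2) =
        RCLike.re (star v ⬝ᵥ (H2 *ᵥ v)) := by
      field_simp
    rw [this]

/-- **Contact rule, strict half**: unless `A0` and `A1` have a common kernel vector, the inequality
can be made strict. -/
theorem contact_lt {F : Filter ℝ} [F.NeBot] (hF : F ≤ 𝓝[≠] (0 : ℝ))
    {H : ℝ → Matrix n n 𝕜} {H0 H1 H2 A0 A1 : Matrix n n 𝕜}
    (hA0h : A0.IsHermitian) (hA0p : ∀ x, 0 ≤ RCLike.re (star x ⬝ᵥ (A0 *ᵥ x)))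
    (hA1 : A1.IsHermitian)
    (hH : ∀ᶠ t in F, (H t).IsHermitian)
    (hc : ∀ᶠ t in F, (H t).charpoly = (A0 + t • A1).charpoly)
    (hT : Tendsto (fun t : ℝ => (t ^ 2)⁻¹ • (H t - H0 - t • H1 - t ^ 2 • H2)) F (𝓝 0))
    {v : n → 𝕜} (hv : H0 *ᵥ v = 0) (hv0 : v ≠ 0) :
    (∃ w : n → 𝕜, w ≠ 0 ∧ A0 *ᵥ w = 0 ∧ A1 *ᵥ w = 0) ∨
    ∃ q : n → 𝕜, RCLike.re (star v ⬝ᵥ (H2 *ᵥ v)) <
      2 * RCLike.re (star q ⬝ᵥ (H1 *ᵥ v)) - RCLike.re (star q ⬝ᵥ (H0 *ᵥ q)) := by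
  have hA0 := psd_of_re hA0h hA0p
  by_cases hv1 : ∀ u, H0 *ᵥ u = 0 → star u ⬝ᵥ (H1 *ᵥ v) = 0
  · obtain ⟨W0, hW1, hW2, hW3, hmain⟩ := second_order_vec hF hA0.1 hA1 hH hc hT
    obtain ⟨q, r, hq, hr, e⟩ := hmain v hv hv1
    have hH0 : H0.PosSemidef := by rw [← hW3]; exact hA0.conjTranspose_mul_mul_same W0
    have h1 := (RCLike.nonneg_iff.1 (hH0.dotProduct_mulVec_nonneg r)).1
    by_cases h2 : RCLike.re (star r ⬝ᵥ (H0 *ᵥ r)) = 0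
    · left
      have h3 : star r ⬝ᵥ (H0 *ᵥ r) = 0 := by
        have := (RCLike.nonneg_iff.1 (hH0.dotProduct_mulVec_nonneg r)).2
        exact RCLike.ext (by rw [h2, map_zero]) (by rw [this, map_zero])
      have h4 : H0 *ᵥ r = 0 := (hH0.dotProduct_mulVec_zero_iff r).1 h3
      have h5 : (W0ᴴ * A1 * W0) *ᵥ v = 0 := by rw [← hr, h4]
      refine ⟨W0 *ᵥ v, ?_, ?_, ?_⟩
      · intro h
        apply hv0
        have := congrArg (fun x => W0ᴴ *ᵥ x) h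
        simpa [Matrix.mulVec_mulVec, hW2] using this
      · have : W0 *ᵥ (H0 *ᵥ v) = 0 := by rw [hv, Matrix.mulVec_zero]
        rw [← hW3, Matrix.mulVec_mulVec] at this
        rw [Matrix.mulVec_mulVec]
        have e : W0 * (W0ᴴ * A0 * W0) = A0 * W0 := by
          rw [← mul_assoc, ← mul_assoc, hW1, one_mul]
        rwa [e] at this
      · have : W0 *ᵥ ((W0ᴴ * A1 * W0) *ᵥ v) = 0 := by rw [h5, Matrix.mulVec_zero]
        rw [Matrix.mulVec_mulVec] at this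
        rw [Matrix.mulVec_mulVec]
        have e : W0 * (W0ᴴ * A1 * W0) = A1 * W0 := by
          rw [← mul_assoc, ← mul_assoc, hW1, one_mul]
        rwa [e] at this
    · right
      refine ⟨q, ?_⟩
      have h3 := lt_of_le_of_ne h1 (Ne.symm h2)
      rw [e, map_sub, ← hq]
      linarith
  · right
    push Not at hv1
    obtain ⟨u, hu, hu1⟩ := hv1
    set z : 𝕜 := star u ⬝ᵥ (H1 *ᵥ v) with hz
    have hz2 : 0 < ‖z‖ ^ 2 := by
      have := norm_pos_iff.2 hu1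
      positivity
    set c : ℝ := (RCLike.re (star v ⬝ᵥ (H2 *ᵥ v)) + 1) / (2 * ‖z‖ ^ 2) with hcdef
    refine ⟨((c : 𝕜) * z) • u, ?_⟩
    have e1 : star (((c : 𝕜) * z) • u) ⬝ᵥ (H1 *ᵥ v) = ((c * ‖z‖ ^ 2 : ℝ) : 𝕜) := by
      rw [star_smul, smul_dotProduct, ← hz, smul_eq_mul, star_mul']
      have h1 : star (c : 𝕜) = (c : 𝕜) := RCLike.conj_ofReal c
      have h2 : star z * z = ((‖z‖ ^ 2 : ℝ) : 𝕜) := by
        have := RCLike.conj_mul z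
        rw [show star z = (starRingEnd 𝕜) z from rfl, this]
        push_cast; rfl
      rw [h1, mul_assoc, h2]
      push_cast; rfl
    have e2 : star (((c : 𝕜) * z) • u) ⬝ᵥ (H0 *ᵥ (((c : 𝕜) * z) • u)) = 0 := by
      rw [Matrix.mulVec_smul, hu, smul_zero, dotProduct_zero]
    rw [e1, e2, RCLike.ofReal_re, map_zero, sub_zero, hcdef]
    have : 2 * ((RCLike.re (star v ⬝ᵥ (H2 *ᵥ v)) + 1) / (2 * ‖z‖ ^ 2) * ‖z‖ ^ 2) =
        RCLike.re (star v ⬝ᵥ (H2 *ᵥ v)) + 1 := by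
      field_simp
    rw [this]
    linarith

end Vale.Agent.P256.H975
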