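import Vale.Agent.P256.H975.Rule
import Vale.Agent.P256.H909.HV
import Vale.Agent.P256.H387.Herm

/-! The contact rule for determinantal representations of a hyperbolic polynomial along a line. -/

set_option linter.all false

namespace Vale.Agent.P256.H975

open Filter Topology Matrix Vale.Agent.P256 Vale.Agent.P256.H387
open scoped ComplexOrder

section Charpoly

variable {𝕜 : Type*} [RCLike 𝕜] {n : Type*} [Fintype n] [DecidableEq n]

theorem charpoly_of_det {A B : Matrix n n 𝕜}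
    (h : ∀ t : ℝ, ((t : 𝕜) • (1 : Matrix n n 𝕜) + A).det = ((t : 𝕜) • (1 : Matrix n n 𝕜) + B).det) :
    A.charpoly = B.charpoly := by
  refine Polynomial.eq_of_infinite_eval_eq _ _ (Set.Infinite.mono ?_
    (Set.infinite_range_of_injective (f := fun t : ℝ => (t : 𝕜)) RCLike.ofReal_injective))
  rintro x ⟨t, rfl⟩
  show Polynomial.eval (t : 𝕜) A.charpoly = Polynomial.eval (t : 𝕜) B.charpoly
  have key : ∀ M : Matrix n n 𝕜, Polynomial.eval (t : 𝕜) M.charpoly =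
      (-1) ^ Fintype.card n * (((-t : ℝ) : 𝕜) • (1 : Matrix n n 𝕜) + M).det := by
    intro M
    rw [Matrix.eval_charpoly, ← Matrix.det_neg]
    congr 1
    rw [neg_add, ← sub_eq_add_neg]
    congr 1
    rw [RCLike.ofReal_neg, neg_smul, neg_neg, Matrix.smul_one_eq_diagonal]
    rfl
  rw [key, key, h]

end Charpoly

section Real

variable {ι : Type*} [Fintype ι] [DecidableEq ι]

theorem rl_mul (M N : Matrix ι ι ℂ) : rl (M * N) = rl M * rl N := by
  unfold rl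
  rw [Matrix.fromBlocks_multiply]
  congr 1 <;>
  · ext i j
    simp only [Matrix.map_apply, Matrix.mul_apply, Matrix.add_apply, Matrix.neg_apply,
      Complex.re_sum, Complex.im_sum, Complex.mul_re, Complex.mul_im, Finset.sum_add_distrib,
      Finset.sum_sub_distrib, Finset.sum_neg_distrib, mul_neg, neg_mul]
    ring

theorem rl_one : rl (1 : Matrix ι ι ℂ) = 1 := by
  ext (i | i) (j | j)
  · by_cases h : i = j
    · subst h; simp [rl]
    · simp [rl, h]
  · by_cases h : i = j <;> simp [rl, h]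
  · by_cases h : i = j <;> simp [rl, h]
  · by_cases h : i = j
    · subst h; simp [rl]
    · simp [rl, h]

theorem rl_real_smul_one (t : ℝ) : rl ((t : ℂ) • (1 : Matrix ι ι ℂ)) = t • 1 := by
  have : (t : ℂ) • (1 : Matrix ι ι ℂ) = t • 1 := by
    ext i j; simp
  rw [this, rl_smul, rl_one]

/-- the determinant of the real form of a Hermitian matrix -/
theorem det_rl {L : Matrix ι ι ℂ} (hL : L.IsHermitian) :
    (((rl L).det : ℝ) : ℂ) = L.det ^ 2 := by
  set U : Matrix ι ι ℂ := (hL.eigenvectorUnitary : Matrix ι ι ℂ) with hU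
  have hUU : star U * U = 1 := (Matrix.mem_unitaryGroup_iff').1 hL.eigenvectorUnitary.2
  have hLeq : L = U * diagonal (fun i => ((hL.eigenvalues i : ℝ) : ℂ)) * star U := by
    have := hL.spectral_theorem
    rw [Unitary.conjStarAlgAut_apply] at this
    exact this
  have h1 : (rl U).det * (rl (star U)).det = 1 := by
    rw [mul_comm, ← Matrix.det_mul, ← rl_mul, hUU, rl_one, Matrix.det_one]
  have h2 : (rl (diagonal (fun i => ((hL.eigenvalues i : ℝ) : ℂ)))).det =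
      (∏ i, hL.eigenvalues i) ^ 2 := by
    have e1 : (diagonal (fun i => ((hL.eigenvalues i : ℝ) : ℂ))).map Complex.re =
        diagonal hL.eigenvalues := by
      ext i j; by_cases h : i = j <;> simp [Matrix.diagonal, h]
    have e2 : (diagonal (fun i => ((hL.eigenvalues i : ℝ) : ℂ))).map Complex.im = 0 := by
      ext i j; by_cases h : i = j <;> simp [Matrix.diagonal, h]
    unfold rl
    rw [e1, e2, neg_zero, Matrix.det_fromBlocks_zero₁₂, Matrix.det_diagonal, sq]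
  have h3 : (rl L).det = (∏ i, hL.eigenvalues i) ^ 2 := by
    conv_lhs => rw [hLeq]
    rw [rl_mul, rl_mul, Matrix.det_mul, Matrix.det_mul, h2]
    have : (rl U).det * (∏ i, hL.eigenvalues i) ^ 2 * (rl (star U)).det =
        ((rl U).det * (rl (star U)).det) * (∏ i, hL.eigenvalues i) ^ 2 := by ring
    rw [this, h1, one_mul]
  rw [h3, hL.det_eq_prod_eigenvalues]
  push_cast
  rfl

end Real

/-- positive semidefiniteness of `A` from the roots of `t ↦ det (t - A)` -/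
theorem psd_of_roots {n : Type*} [Fintype n] [DecidableEq n] {A : Matrix n n ℂ}
    (hA : A.IsHermitian)
    (h : ∀ t : ℝ, ((t : ℂ) • (1 : Matrix n n ℂ) - A).det = 0 → 0 ≤ t) :
    ∀ x, 0 ≤ (star x ⬝ᵥ (A *ᵥ x)).re := by
  have h1 : ∀ i, 0 ≤ hA.eigenvalues i := by
    intro i
    apply h
    refine Matrix.exists_mulVec_eq_zero_iff.1 ⟨⇑(hA.eigenvectorBasis i), ?_, ?_⟩
    · exact (WithLp.ofLp_eq_zero 2).ne.2 (hA.eigenvectorBasis.orthonormal.ne_zero i)
    · rw [Matrix.sub_mulVec, Matrix.smul_mulVec, Matrix.one_mulVec, hA.mulVec_eigenvectorBasis,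
        sub_eq_zero]
      funext j; simp
  have h2 := (hA.posSemidef_iff_eigenvalues_nonneg).2 (fun i => h1 i)
  intro x
  exact (Complex.le_def.1 (h2.dotProduct_mulVec_nonneg x)).1

section Line

variable {N : ℕ} {p : MvPolynomial (Fin N) ℝ} {e : Fin N → ℝ}

/-- the linear pencil along a line through a point of the cone -/
theorem line_pencil (hp : IsHyperbolic p e) {d : ℕ} (hd : p.IsHomogeneous d) {z : Fin N → ℝ}
    (hz : z ∈ hypCone p e) (w : Fin N → ℝ) :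
    ∃ A G : Matrix (Fin d) (Fin d) ℂ, A.IsHermitian ∧ G.IsHermitian ∧
      (∀ x, 0 ≤ (star x ⬝ᵥ (A *ᵥ x)).re) ∧
      ∀ t τ : ℝ, ((MvPolynomial.eval (t • e + z + τ • w) p : ℝ) : ℂ) =
        ((MvPolynomial.eval e p : ℝ) : ℂ) *
          ((t : ℂ) • (1 : Matrix (Fin d) (Fin d) ℂ) + (A + τ • G)).det := by
  obtain ⟨A, G, hA, hG, h⟩ := H909.helton_vinnikov hp hd z w
  have hτ : ∀ (τ : ℝ) (M : Matrix (Fin d) (Fin d) ℂ), (τ : ℂ) • M = τ • M := by
    intro τ M; ext i j; simp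
  refine ⟨A, G, hA, hG, psd_of_roots hA fun t ht => ?_, fun t τ => ?_⟩
  · apply hz t
    have h1 := h t (-1) 0
    have h2 : ((t : ℂ) • (1 : Matrix (Fin d) (Fin d) ℂ) + ((-1 : ℝ) : ℂ) • A +
        ((0 : ℝ) : ℂ) • G) = (t : ℂ) • (1 : Matrix (Fin d) (Fin d) ℂ) - A := by
      simp [sub_eq_add_neg]
    rw [h2, ht, mul_zero] at h1
    have h3 : t • e + (-1 : ℝ) • z + (0 : ℝ) • w = t • e - z := by
      simp [sub_eq_add_neg]
    rw [h3] at h1
    exact_mod_cast h1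
  · have h1 := h t 1 τ
    rw [one_smul] at h1
    rw [h1, Complex.ofReal_one, one_smul, hτ τ G, add_assoc]

/-- **Contact rule for a complex Hermitian representation along a line.** -/
theorem contact_line (hp : IsHyperbolic p e) {n : Type*} [Fintype n] [DecidableEq n]
    (hd : p.IsHomogeneous (Fintype.card n)) {z : Fin N → ℝ}
    (hz : z ∈ hypCone p e) {w : Fin N → ℝ} {F : Filter ℝ} [F.NeBot] (hF : F ≤ 𝓝[≠] (0 : ℝ))
    {H : ℝ → Matrix n n ℂ} {H0 H1 H2 : Matrix n n ℂ}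
    (hH : ∀ᶠ τ in F, (H τ).IsHermitian)
    (hdet : ∀ᶠ τ in F, ∀ t : ℝ, ((MvPolynomial.eval (t • e + z + τ • w) p : ℝ) : ℂ) =
        ((MvPolynomial.eval e p : ℝ) : ℂ) * ((t : ℂ) • (1 : Matrix n n ℂ) + H τ).det)
    (hT : Tendsto (fun t : ℝ => (t ^ 2)⁻¹ • (H t - H0 - t • H1 - t ^ 2 • H2)) F (𝓝 0))
    {v : n → ℂ} (hv : H0 *ᵥ v = 0) :
    (∃ q : n → ℂ, (star v ⬝ᵥ (H2 *ᵥ v)).re ≤
      2 * (star q ⬝ᵥ (H1 *ᵥ v)).re - (star q ⬝ᵥ (H0 *ᵥ q)).re) ∧
    (v ≠ 0 → (∀ τ : ℝ, MvPolynomial.eval (z + τ • w) p = 0) ∨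
      ∃ q : n → ℂ, (star v ⬝ᵥ (H2 *ᵥ v)).re <
      2 * (star q ⬝ᵥ (H1 *ᵥ v)).re - (star q ⬝ᵥ (H0 *ᵥ q)).re) := by
  obtain ⟨A, G, hA, hG, hAp, h⟩ := line_pencil hp hd hz w
  set φ : n ≃ Fin (Fintype.card n) := Fintype.equivFin n with hφ
  set A0 : Matrix n n ℂ := A.submatrix φ φ with hA0
  set A1 : Matrix n n ℂ := G.submatrix φ φ with hA1
  have hA0h : A0.IsHermitian := hA.submatrix φ
  have hA1h : A1.IsHermitian := hG.submatrix φ
  have hsub : ∀ (M : Matrix (Fin (Fintype.card n)) (Fin (Fintype.card n)) ℂ) (x : n → ℂ),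
      (M.submatrix φ φ) *ᵥ x = (M *ᵥ (x ∘ φ.symm)) ∘ φ := by
    intro M x
    rw [Matrix.submatrix_mulVec_equiv]
  have hdot : ∀ x y : n → ℂ, x ⬝ᵥ y = (x ∘ φ.symm) ⬝ᵥ (y ∘ φ.symm) := by
    intro x y
    simp only [dotProduct, Function.comp]
    exact (Equiv.sum_comp φ.symm fun i => x i * y i).symm
  have hA0p : ∀ x, 0 ≤ (star x ⬝ᵥ (A0 *ᵥ x)).re := by
    intro x
    have := hAp (x ∘ φ.symm)
    rw [hA0, hsub, hdot]
    have e1 : (star x) ∘ φ.symm = star (x ∘ φ.symm) := rfl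
    have e2 : ((A *ᵥ (x ∘ φ.symm)) ∘ φ) ∘ φ.symm = A *ᵥ (x ∘ φ.symm) := by
      funext i; simp
    rw [e1, e2]
    exact this
  have he : ((MvPolynomial.eval e p : ℝ) : ℂ) ≠ 0 := by
    exact_mod_cast hp.2.1.ne'
  have hsubdet : ∀ t τ : ℝ, ((t : ℂ) • (1 : Matrix n n ℂ) + (A0 + τ • A1)).det =
      ((t : ℂ) • (1 : Matrix (Fin (Fintype.card n)) (Fin (Fintype.card n)) ℂ) +
        (A + τ • G)).det := by
    intro t τ
    rw [← Matrix.det_submatrix_equiv_self φ ((t : ℂ) • 1 + (A + τ • G))]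
    congr 1
    rw [hA0, hA1]
    ext i j
    simp [Matrix.one_apply]
  have hc : ∀ᶠ τ in F, (H τ).charpoly = (A0 + τ • A1).charpoly := by
    filter_upwards [hdet] with τ hτ
    apply charpoly_of_det
    intro t
    have h1 := hτ t
    rw [h t τ] at h1
    have h2 := mul_left_cancel₀ he h1
    exact h2.symm.trans (hsubdet t τ).symm
  refine ⟨contact_le hF hA0h hA0p hA1h hH hc hT hv, fun hv0 => ?_⟩
  rcases contact_lt hF hA0h hA0p hA1h hH hc hT hv hv0 with ⟨x, hx, hx0, hx1⟩ | hq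
  · left
    intro τ
    have h1 := h 0 τ
    rw [zero_smul, zero_add] at h1
    have h2 : ((((0 : ℝ) : ℂ) • (1 : Matrix (Fin (Fintype.card n)) (Fin (Fintype.card n)) ℂ) +
        (A + τ • G))).det = 0 := by
      rw [← hsubdet]
      refine Matrix.exists_mulVec_eq_zero_iff.1 ⟨x, hx, ?_⟩
      rw [Complex.ofReal_zero, zero_smul, zero_add, Matrix.add_mulVec, Matrix.smul_mulVec, hx0,
        hx1, smul_zero, add_zero]
    rw [h2, mul_zero] at h1
    exact_mod_cast h1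
  · right; exact hq

/-- **Contact rule for a real symmetric representation (of the square) along a line.** -/
theorem contact_line_real (hp : IsHyperbolic p e) {d : ℕ} (hd : p.IsHomogeneous d)
    {n : Type*} [Fintype n] [DecidableEq n] (hn : Fintype.card n = 2 * d)
    {z : Fin N → ℝ}
    (hz : z ∈ hypCone p e) {w : Fin N → ℝ} {F : Filter ℝ} [F.NeBot] (hF : F ≤ 𝓝[≠] (0 : ℝ))
    {H : ℝ → Matrix n n ℝ} {H0 H1 H2 : Matrix n n ℝ}
    (hH : ∀ᶠ τ in F, (H τ).IsHermitian)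
    (hdet : ∀ᶠ τ in F, ∀ t : ℝ, (MvPolynomial.eval (t • e + z + τ • w) p) ^ 2 =
        (MvPolynomial.eval e p) ^ 2 * (t • (1 : Matrix n n ℝ) + H τ).det)
    (hT : Tendsto (fun t : ℝ => (t ^ 2)⁻¹ • (H t - H0 - t • H1 - t ^ 2 • H2)) F (𝓝 0))
    {v : n → ℝ} (hv : H0 *ᵥ v = 0) :
    (∃ q : n → ℝ, v ⬝ᵥ (H2 *ᵥ v) ≤ 2 * (q ⬝ᵥ (H1 *ᵥ v)) - q ⬝ᵥ (H0 *ᵥ q)) ∧
    (v ≠ 0 → (∀ τ : ℝ, MvPolynomial.eval (z + τ • w) p = 0) ∨
      ∃ q : n → ℝ, v ⬝ᵥ (H2 *ᵥ v) < 2 * (q ⬝ᵥ (H1 *ᵥ v)) - q ⬝ᵥ (H0 *ᵥ q)) := by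
  obtain ⟨A, G, hA, hG, hAp, h⟩ := line_pencil hp hd hz w
  have hcard : Fintype.card n = Fintype.card (Fin d ⊕ Fin d) := by
    rw [hn, Fintype.card_sum, Fintype.card_fin]; ring
  set φ : n ≃ Fin d ⊕ Fin d := Fintype.equivOfCardEq hcard with hφ
  set A0 : Matrix n n ℝ := (rl A).submatrix φ φ with hA0
  set A1 : Matrix n n ℝ := (rl G).submatrix φ φ with hA1
  have hA0h : A0.IsHermitian := (rl_herm hA).submatrix φ
  have hA1h : A1.IsHermitian := (rl_herm hG).submatrix φ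
  have hA0p : ∀ x, 0 ≤ RCLike.re (star x ⬝ᵥ (A0 *ᵥ x)) := by
    intro x
    rw [RCLike.re_to_real, star_trivial]
    have h1 : A0 *ᵥ x = (rl A *ᵥ (x ∘ φ.symm)) ∘ φ := by
      rw [hA0, Matrix.submatrix_mulVec_equiv]
    have h2 : x ⬝ᵥ (A0 *ᵥ x) = (x ∘ φ.symm) ⬝ᵥ (rl A *ᵥ (x ∘ φ.symm)) := by
      rw [h1]
      simp only [dotProduct, Function.comp]
      rw [← Equiv.sum_comp φ.symm]
      refine Finset.sum_congr rfl fun i _ => ?_
      rw [Equiv.apply_symm_apply]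
    rw [h2, ← rv_cv (x ∘ φ.symm), rl_form]
    exact hAp _
  have he : MvPolynomial.eval e p ≠ 0 := hp.2.1.ne'
  have hdet2 : ∀ t τ : ℝ, (MvPolynomial.eval (t • e + z + τ • w) p) ^ 2 =
      (MvPolynomial.eval e p) ^ 2 * (t • (1 : Matrix n n ℝ) + (A0 + τ • A1)).det := by
    intro t τ
    have e1 : (t • (1 : Matrix n n ℝ) + (A0 + τ • A1)) =
        (rl ((t : ℂ) • (1 : Matrix (Fin d) (Fin d) ℂ) + (A + τ • G))).submatrix φ φ := by
      rw [rl_add, rl_add, rl_real_smul_one, rl_smul, hA0, hA1]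
      ext i j
      simp [Matrix.one_apply]
    have hherm : ((t : ℂ) • (1 : Matrix (Fin d) (Fin d) ℂ) + (A + τ • G)).IsHermitian := by
      have g1 : ((t : ℂ) • (1 : Matrix (Fin d) (Fin d) ℂ)).IsHermitian := by
        show ((t : ℂ) • (1 : Matrix (Fin d) (Fin d) ℂ))ᴴ = _
        rw [conjTranspose_smul, conjTranspose_one]
        congr 1
        exact Complex.conj_ofReal t
      have g2 : (τ • G).IsHermitian := by
        show (τ • G)ᴴ = _
        rw [conjTranspose_smul, hG, star_trivial]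
      exact g1.add (hA.add g2)
    have e2 := det_rl hherm
    rw [e1, Matrix.det_submatrix_equiv_self]
    have e3 : (((MvPolynomial.eval (t • e + z + τ • w) p) ^ 2 : ℝ) : ℂ) =
        (((MvPolynomial.eval e p) ^ 2 * (rl ((t : ℂ) • (1 : Matrix (Fin d) (Fin d) ℂ) +
          (A + τ • G))).det : ℝ) : ℂ) := by
      push_cast
      rw [e2, h t τ]
      ring
    exact_mod_cast e3
  have hc : ∀ᶠ τ in F, (H τ).charpoly = (A0 + τ • A1).charpoly := by
    filter_upwards [hdet] with τ hτ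
    apply charpoly_of_det
    intro t
    have h1 := hτ t
    rw [hdet2 t τ] at h1
    exact (mul_left_cancel₀ (pow_ne_zero 2 he) h1).symm
  have hle := contact_le hF hA0h hA0p hA1h hH hc hT hv
  simp only [RCLike.re_to_real, star_trivial] at hle
  refine ⟨hle, fun hv0 => ?_⟩
  rcases contact_lt hF hA0h hA0p hA1h hH hc hT hv hv0 with ⟨x, hx, hx0, hx1⟩ | hq
  · left
    intro τ
    have h1 := hdet2 0 τ
    have h2 : ((0 : ℝ) • (1 : Matrix n n ℝ) + (A0 + τ • A1)).det = 0 := by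
      refine Matrix.exists_mulVec_eq_zero_iff.1 ⟨x, hx, ?_⟩
      rw [zero_smul, zero_add, Matrix.add_mulVec, Matrix.smul_mulVec, hx0, hx1, smul_zero,
        add_zero]
    rw [h2, mul_zero, zero_smul, zero_add] at h1
    exact pow_eq_zero_iff (two_ne_zero) |>.1 h1
  · right
    simpa only [RCLike.re_to_real, star_trivial] using hq

/-- **Contact rule for a real pencil `x₀ + b B + D + a G₁ + a² H(a)`** (base `f`, plane
`z + a w`): for every direction `Z f + α w`. -/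
theorem contact_pencil (hp : IsHyperbolic p e) {d : ℕ} (hd : p.IsHomogeneous d)
    {n : Type*} [Fintype n] [DecidableEq n] (hn : Fintype.card n = 2 * d)
    {z f w : Fin N → ℝ} (hz : z ∈ hypCone p e)
    {B D G1 G2 : Matrix n n ℝ} {H : ℝ → Matrix n n ℝ}
    (hB : B.IsHermitian) (hD : D.IsHermitian) (hG1 : G1.IsHermitian)
    (hH : ∀ᶠ a in 𝓝[≠] (0 : ℝ), (H a).IsHermitian)
    (hHlim : Tendsto H (𝓝[≠] (0 : ℝ)) (𝓝 G2))
    (hdet0 : ∀ t b : ℝ, (MvPolynomial.eval (t • e + b • f + z) p) ^ 2 =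
      (MvPolynomial.eval e p) ^ 2 * (t • (1 : Matrix n n ℝ) + b • B + D).det)
    (hdet : ∀ᶠ a in 𝓝[≠] (0 : ℝ), ∀ t b : ℝ, (MvPolynomial.eval (t • e + b • f + (z + a • w)) p) ^ 2 =
      (MvPolynomial.eval e p) ^ 2 *
        (t • (1 : Matrix n n ℝ) + b • B + (D + a • G1 + a ^ 2 • H a)).det)
    {v : n → ℝ} (hv : D *ᵥ v = 0) (Z α : ℝ) :
    (∃ q : n → ℝ, (v ⬝ᵥ (G2 *ᵥ v)) * α ^ 2 ≤
      2 * (q ⬝ᵥ (Z • (B *ᵥ v) + α • (G1 *ᵥ v))) - q ⬝ᵥ (D *ᵥ q)) ∧
    (v ≠ 0 → (∀ τ : ℝ, MvPolynomial.eval (z + τ • (Z • f + α • w)) p = 0) ∨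
      ∃ q : n → ℝ, (v ⬝ᵥ (G2 *ᵥ v)) * α ^ 2 <
      2 * (q ⬝ᵥ (Z • (B *ᵥ v) + α • (G1 *ᵥ v))) - q ⬝ᵥ (D *ᵥ q)) := by
  have hα : α ≠ 0 → Tendsto (fun t : ℝ => t * α) (𝓝[≠] (0 : ℝ)) (𝓝[≠] (0 : ℝ)) := by
    intro h0
    rw [tendsto_nhdsWithin_iff]
    constructor
    · have : Tendsto (fun t : ℝ => t * α) (𝓝 (0 : ℝ)) (𝓝 (0 * α)) :=
        (continuous_id.mul continuous_const).tendsto 0
      rw [zero_mul] at this
      exact this.mono_left nhdsWithin_le_nhds
    · filter_upwards [self_mem_nhdsWithin] with t ht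
      exact mul_ne_zero ht h0
  set K : ℝ → Matrix n n ℝ := fun t => D + t • (Z • B + α • G1) + t ^ 2 • (α ^ 2 • H (t * α))
    with hK
  have hsm : ∀ {M : Matrix n n ℝ} (c : ℝ), M.IsHermitian → (c • M).IsHermitian := by
    intro M c hM
    show (c • M)ᴴ = _
    rw [conjTranspose_smul, hM, star_trivial]
  have hKh : ∀ᶠ t in 𝓝[≠] (0 : ℝ), (K t).IsHermitian := by
    by_cases h0 : α = 0
    · refine Eventually.of_forall fun t => ?_
      have : K t = D + t • (Z • B + α • G1) := by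
        rw [hK]; simp [h0]
      rw [this]
      exact hD.add (hsm _ ((hsm _ hB).add (hsm _ hG1)))
    · filter_upwards [(hα h0).eventually hH] with t ht
      exact (hD.add (hsm _ ((hsm _ hB).add (hsm _ hG1)))).add (hsm _ (hsm _ ht))
  have hKdet : ∀ᶠ τ in 𝓝[≠] (0 : ℝ), ∀ t : ℝ,
      (MvPolynomial.eval (t • e + z + τ • (Z • f + α • w)) p) ^ 2 =
        (MvPolynomial.eval e p) ^ 2 * (t • (1 : Matrix n n ℝ) + K τ).det := by
    by_cases h0 : α = 0
    · refine Eventually.of_forall fun τ t => ?_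
      have e1 := hdet0 t (τ * Z)
      have e2 : t • e + z + τ • (Z • f + α • w) = t • e + (τ * Z) • f + z := by
        rw [h0, zero_smul, add_zero, smul_smul]; abel
      have e3 : t • (1 : Matrix n n ℝ) + K τ = t • (1 : Matrix n n ℝ) + (τ * Z) • B + D := by
        rw [hK]; simp only [h0]; simp only [zero_smul, add_zero, ne_eq, OfNat.ofNat_ne_zero,
          not_false_eq_true, zero_pow, smul_zero, smul_smul]; abel
      rw [e2, e3]
      exact e1
    · filter_upwards [(hα h0).eventually hdet] with τ hτ t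
      have e1 := hτ t (τ * Z)
      have e2 : t • e + z + τ • (Z • f + α • w) = t • e + (τ * Z) • f + (z + (τ * α) • w) := by
        rw [smul_add, smul_smul, smul_smul]; abel
      have e3 : t • (1 : Matrix n n ℝ) + K τ = t • (1 : Matrix n n ℝ) + (τ * Z) • B +
          (D + (τ * α) • G1 + (τ * α) ^ 2 • H (τ * α)) := by
        rw [hK]; simp only [smul_add, smul_smul, mul_pow]; abel
      rw [e2, e3]
      exact e1
  have hKT : Tendsto (fun t : ℝ => (t ^ 2)⁻¹ • (K t - D - t • (Z • B + α • G1) -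
      t ^ 2 • (α ^ 2 • G2))) (𝓝[≠] (0 : ℝ)) (𝓝 0) := by
    have e1 : ∀ t : ℝ, t ≠ 0 → (t ^ 2)⁻¹ • (K t - D - t • (Z • B + α • G1) -
        t ^ 2 • (α ^ 2 • G2)) = α ^ 2 • (H (t * α) - G2) := by
      intro t ht
      have : K t - D - t • (Z • B + α • G1) - t ^ 2 • (α ^ 2 • G2) =
          t ^ 2 • (α ^ 2 • (H (t * α) - G2)) := by
        rw [hK]; simp only [smul_sub]; abel
      rw [this, smul_smul, inv_mul_cancel₀ (pow_ne_zero 2 ht), one_smul]
    have e2 : Tendsto (fun t : ℝ => α ^ 2 • (H (t * α) - G2)) (𝓝[≠] (0 : ℝ)) (𝓝 0) := by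
      by_cases h0 : α = 0
      · simp [h0]
      · have := (((hHlim.comp (hα h0)).sub_const G2).const_smul (α ^ 2))
        rw [sub_self, smul_zero] at this
        exact this
    refine e2.congr' ?_
    filter_upwards [self_mem_nhdsWithin] with t ht
    exact (e1 t ht).symm
  obtain ⟨h1, h2⟩ := contact_line_real hp hd hn hz (w := Z • f + α • w) le_rfl hKh hKdet hKT hv
  have g1 : (Z • B + α • G1) *ᵥ v = Z • (B *ᵥ v) + α • (G1 *ᵥ v) := by
    rw [Matrix.add_mulVec, Matrix.smul_mulVec, Matrix.smul_mulVec]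
  have g2 : v ⬝ᵥ ((α ^ 2 • G2) *ᵥ v) = (v ⬝ᵥ (G2 *ᵥ v)) * α ^ 2 := by
    rw [Matrix.smul_mulVec, dotProduct_smul, smul_eq_mul, mul_comm]
  rw [g1, g2] at h1 h2
  exact ⟨h1, h2⟩

end Line

end Vale.Agent.P256.H975
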